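import Vale.Agent.P181.R2.H553.CDefs

/-!
Row A2: linear independence of the family `FF` with four points on the frame.
-/

set_option autoImplicit false

open MvPolynomial

namespace Vale.Agent.P181.H553

open Vale.Agent.P181 Vale.Agent.P181.H280 Vale.Agent.P181.H179

namespace RowA2

/-- The determinant with integer coordinates. -/
def dZ (q : Fin 5 → Fin 3 → ℤ) (i j k : Fin 5) : ℤ :=
  q i 0 * q j 1 * q k 2 - q i 0 * q j 2 * q k 1 - q i 1 * q j 0 * q k 2
    + q i 1 * q j 2 * q k 0 + q i 2 * q j 0 * q k 1 - q i 2 * q j 1 * q k 0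

/-- Five points with integer coordinates. -/
def qZ (x y z : ℤ) : Fin 5 → Fin 3 → ℤ :=
  ![![x, y, z], ![1, 0, 0], ![0, 1, 0], ![0, 0, 1], ![1, 1, 1]]

/-- The sum over the pentagons, with integer coordinates. -/
def gZ (q : Fin 5 → Fin 3 → ℤ) (k : ℕ) : ℤ :=
  ∑ σ : Equiv.Perm (Fin 5), (∏ i : Fin 5, dZ q (σ i) (σ (i + 1)) (σ (i + 2))) ^ k

lemma g0 : gZ (qZ 1 1 0) 2 = 40 := by decide +kernel

lemma k0 : gZ (qZ 1 1 0) 6 = 40 := by decide +kernel

lemma g1 : gZ (qZ 1 1 (-1)) 2 = 480 := by decide +kernel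

lemma k1 : gZ (qZ 1 1 (-1)) 6 = 84480 := by decide +kernel

lemma evp_br (p : Fin 5 → Pt) (i j k : Fin 5) : evp (br i j k) p =
    p i 0 * p j 1 * p k 2 - p i 0 * p j 2 * p k 1 - p i 1 * p j 0 * p k 2
      + p i 1 * p j 2 * p k 0 + p i 2 * p j 0 * p k 1 - p i 2 * p j 1 * p k 0 := by
  unfold evp br
  rw [Matrix.det_fin_three]
  simp

lemma evp_br_int (q : Fin 5 → Fin 3 → ℤ) (i j k : Fin 5) :
    evp (br i j k) (fun l s => (q l s : ℂ)) = (dZ q i j k : ℂ) := by
  rw [evp_br]
  unfold dZ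
  push_cast
  rfl

lemma evp_Wp_int (q : Fin 5 → Fin 3 → ℤ) (σ : Equiv.Perm (Fin 5)) :
    evp (Wp σ) (fun l s => (q l s : ℂ)) =
      ((∏ i : Fin 5, dZ q (σ i) (σ (i + 1)) (σ (i + 2)) : ℤ) : ℂ) := by
  rw [Int.cast_prod]
  unfold Wp evp
  rw [map_prod]
  exact Finset.prod_congr rfl (fun i _ => evp_br_int q _ _ _)

lemma evp_Gp_int (q : Fin 5 → Fin 3 → ℤ) :
    evp Gp (fun l s => (q l s : ℂ)) = ((gZ q 2 : ℤ) : ℂ) := by
  unfold gZ
  rw [Int.cast_sum]
  unfold Gp evp
  rw [map_sum]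
  refine Finset.sum_congr rfl (fun σ _ => ?_)
  rw [map_pow, Int.cast_pow]
  congr 1
  exact evp_Wp_int q σ

lemma evp_Kp_int (q : Fin 5 → Fin 3 → ℤ) :
    evp Kp (fun l s => (q l s : ℂ)) = ((gZ q 6 : ℤ) : ℂ) := by
  unfold gZ
  rw [Int.cast_sum]
  unfold Kp evp
  rw [map_sum]
  refine Finset.sum_congr rfl (fun σ _ => ?_)
  rw [map_pow, Int.cast_pow]
  congr 1
  exact evp_Wp_int q σ

lemma five_int (x y z : ℤ) :
    five ![(x : ℂ), (y : ℂ), (z : ℂ)] = fun l s => ((qZ x y z l s : ℤ) : ℂ) := by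
  funext l s
  fin_cases l <;> fin_cases s <;> simp [five, frame, qZ]

/-- Five points with polynomial coordinates. -/
noncomputable def qP (x y z : Polynomial ℂ) : Fin 5 → Fin 3 → Polynomial ℂ :=
  ![![x, y, z], ![1, 0, 0], ![0, 1, 0], ![0, 0, 1], ![1, 1, 1]]

/-- Substitution of polynomials. -/
noncomputable def sub (x y z : Polynomial ℂ) (Q : MvPolynomial (Fin 5 × Fin 3) ℂ) :
    Polynomial ℂ :=
  aeval (fun s : Fin 5 × Fin 3 => qP x y z s.1 s.2) Q

lemma sub_eval (x y z : Polynomial ℂ) (Q : MvPolynomial (Fin 5 × Fin 3) ℂ) (w : ℂ) :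
    (sub x y z Q).eval w = evp Q (five ![x.eval w, y.eval w, z.eval w]) := by
  have h1 := MvPolynomial.map_aeval (fun s : Fin 5 × Fin 3 => qP x y z s.1 s.2)
    (Polynomial.evalRingHom w) Q
  have h2 : (Polynomial.evalRingHom w).comp (algebraMap ℂ (Polynomial ℂ)) = RingHom.id ℂ := by
    ext r
    simp
  have h3 : (fun s : Fin 5 × Fin 3 => Polynomial.evalRingHom w (qP x y z s.1 s.2)) =
      fun s : Fin 5 × Fin 3 => five ![x.eval w, y.eval w, z.eval w] s.1 s.2 := by
    funext s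
    obtain ⟨l, s⟩ := s
    fin_cases l <;> fin_cases s <;> simp [five, frame, qP]
  rw [h2, h3] at h1
  exact h1

lemma dZ_ne (n : ℤ) (hn : 3 ≤ n) : ∀ i j k : Fin 5, i ≠ j → i ≠ k → j ≠ k →
    dZ (qZ 1 2 n) i j k ≠ 0 := by
  intro i j k
  fin_cases i <;> fin_cases j <;> fin_cases k <;> simp [dZ, qZ] <;> omega

lemma evp_Dp_ne (n : ℤ) (hn : 3 ≤ n) : evp Dp (five ![1, 2, (n : ℂ)]) ≠ 0 := by
  have h := five_int 1 2 n
  rw [Int.cast_one, Int.cast_ofNat] at h
  rw [h]
  unfold Dp evp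
  rw [map_prod, Finset.prod_ne_zero_iff]
  intro e _
  have h1 := evp_br_int (qZ 1 2 n) (e 0) (e 1) (e 2)
  unfold evp at h1
  rw [h1, Int.cast_ne_zero]
  exact dZ_ne n hn _ _ _ (fun h => absurd (e.injective h) (by decide))
    (fun h => absurd (e.injective h) (by decide)) (fun h => absurd (e.injective h) (by decide))

lemma evp_Dp_zero (n : ℤ) : evp Dp (five ![1, 1, (n : ℂ)]) = 0 := by
  have h := five_int 1 1 n
  rw [Int.cast_one] at h
  rw [h]
  unfold Dp evp
  rw [map_prod]
  refine Finset.prod_eq_zero (Finset.mem_univ (⟨![0, 3, 4], by decide⟩ : Fin 3 ↪ Fin 5)) ?_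
  have h1 := evp_br_int (qZ 1 1 n) 0 3 4
  unfold evp at h1
  refine h1.trans ?_
  rw [Int.cast_eq_zero]
  simp [dZ, qZ]

lemma step1 {N : ℕ} (a : Polynomial ℂ) (ha : a ≠ 0) (ha0 : a.eval 0 = 0)
    (b : Fin N → Polynomial ℂ) (hsum : ∑ i : Fin N, a ^ ((i : ℕ) + 1) * b i = 0) (i : Fin N)
    (hlt : ∀ i' : Fin N, i' < i → b i' = 0) : (b i).eval 0 = 0 := by
  have h1 : a ^ ((i : ℕ) + 1) *
      ∑ i' : Fin N, (if i' < i then 0 else a ^ ((i' : ℕ) - i) * b i') = 0 := by
    refine Eq.trans ?_ hsum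
    rw [Finset.mul_sum]
    refine Finset.sum_congr rfl (fun i' _ => ?_)
    by_cases h : i' < i
    · rw [if_pos h, hlt i' h, mul_zero, mul_zero]
    · rw [if_neg h, ← mul_assoc, ← pow_add]
      have h2 : (i : ℕ) ≤ i' := not_lt.1 h
      congr 2
      omega
  have h2 := (mul_eq_zero.1 h1).resolve_left (pow_ne_zero _ ha)
  have h3 := congrArg (Polynomial.eval 0) h2
  rw [Polynomial.eval_finsetSum, Polynomial.eval_zero, Finset.sum_eq_single i] at h3
  · rw [if_neg (lt_irrefl i), Nat.sub_self, pow_zero, one_mul] at h3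
    exact h3
  · intro i' _ hne
    by_cases h : i' < i
    · rw [if_pos h, Polynomial.eval_zero]
    · have h4 : i < i' := lt_of_le_of_ne (not_lt.1 h) (Ne.symm hne)
      have h5 : (i' : ℕ) - i ≠ 0 := by
        have : (i : ℕ) < i' := h4
        omega
      rw [if_neg h, Polynomial.eval_mul, Polynomial.eval_pow, ha0, zero_pow h5, zero_mul]
  · intro h
    exact absurd (Finset.mem_univ i) h

lemma step2 {N : ℕ} (K G : Polynomial ℂ) (hK0 : K.eval 0 = 40) (hG0 : G.eval 0 = 40)
    (hK1 : K.eval (-1) = 84480) (hG1 : G.eval (-1) = 480) (c : Fin N → ℂ) (e : ℕ)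
    (he : ∀ j : Fin N, 3 * (j : ℕ) ≤ e)
    (h : ∀ n : ℕ, 3 ≤ n → ∑ j : Fin N,
      c j * (K.eval (n : ℂ) ^ (j : ℕ) * G.eval (n : ℂ) ^ (e - 3 * (j : ℕ))) = 0) :
    ∀ j, c j = 0 := by
  by_contra hne
  push Not at hne
  obtain ⟨j₀, hj₀⟩ := hne
  set P : Polynomial ℂ := ∑ j : Fin N, Polynomial.C (c j) * Polynomial.X ^ (j : ℕ) with hP
  have hPne : P ≠ 0 := by
    intro h0
    apply hj₀
    have h1 := congrArg (fun R : Polynomial ℂ => R.coeff (j₀ : ℕ)) h0
    simp only [hP, Polynomial.finsetSum_coeff, Polynomial.coeff_C_mul, Polynomial.coeff_X_pow,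
      Polynomial.coeff_zero] at h1
    rw [Finset.sum_eq_single j₀] at h1
    · simpa using h1
    · intro j _ hj
      rw [if_neg (fun hh => hj (Fin.ext hh.symm)), mul_zero]
    · intro hh
      exact absurd (Finset.mem_univ j₀) hh
  have hG : G ≠ 0 := by
    intro h0
    rw [h0, Polynomial.eval_zero] at hG0
    norm_num at hG0
  set T : Polynomial ℂ := G * ∏ ρ ∈ P.roots.toFinset, (K - Polynomial.C ρ * G ^ 3) with hT
  have hT0 : T = 0 := by
    apply Polynomial.eq_zero_of_infinite_isRoot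
    refine Set.infinite_of_injective_forall_mem (f := fun n : ℕ => ((n + 3 : ℕ) : ℂ)) ?_ ?_
    · intro n m hnm
      have h1 : ((n + 3 : ℕ) : ℂ) = ((m + 3 : ℕ) : ℂ) := hnm
      have h2 := Nat.cast_injective h1
      omega
    · intro n
      change T.IsRoot _
      rw [Polynomial.IsRoot.def, hT, Polynomial.eval_mul]
      by_cases hg : G.eval ((n + 3 : ℕ) : ℂ) = 0
      · rw [hg, zero_mul]
      · rw [Polynomial.eval_prod]
        have hroot : K.eval ((n + 3 : ℕ) : ℂ) / G.eval ((n + 3 : ℕ) : ℂ) ^ 3 ∈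
            P.roots.toFinset := by
          rw [Multiset.mem_toFinset, Polynomial.mem_roots hPne, Polynomial.IsRoot.def, hP,
            Polynomial.eval_finsetSum]
          have h1 := h (n + 3) (by omega)
          have h2 : (∑ j : Fin N, (Polynomial.C (c j) * Polynomial.X ^ (j : ℕ)).eval
              (K.eval ((n + 3 : ℕ) : ℂ) / G.eval ((n + 3 : ℕ) : ℂ) ^ 3)) *
                G.eval ((n + 3 : ℕ) : ℂ) ^ e = 0 := by
            rw [← h1, Finset.sum_mul]
            refine Finset.sum_congr rfl (fun j _ => ?_)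
            rw [Polynomial.eval_mul, Polynomial.eval_C, Polynomial.eval_pow,
              Polynomial.eval_X, div_pow, ← pow_mul]
            have h3 : G.eval ((n + 3 : ℕ) : ℂ) ^ e =
                G.eval ((n + 3 : ℕ) : ℂ) ^ (3 * (j : ℕ)) *
                  G.eval ((n + 3 : ℕ) : ℂ) ^ (e - 3 * (j : ℕ)) := by
              rw [← pow_add]
              congr 1
              have := he j
              omega
            rw [h3]
            have h4 : G.eval ((n + 3 : ℕ) : ℂ) ^ (3 * (j : ℕ)) ≠ 0 := pow_ne_zero _ hg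
            field_simp
          exact (mul_eq_zero.1 h2).resolve_right (pow_ne_zero _ hg)
        rw [Finset.prod_eq_zero hroot, mul_zero]
        rw [Polynomial.eval_sub, Polynomial.eval_mul, Polynomial.eval_C, Polynomial.eval_pow]
        have h4 : G.eval ((n + 3 : ℕ) : ℂ) ^ 3 ≠ 0 := pow_ne_zero _ hg
        field_simp
        ring
  rw [hT] at hT0
  have h5 := (mul_eq_zero.1 hT0).resolve_left hG
  rw [Finset.prod_eq_zero_iff] at h5
  obtain ⟨ρ, _, hρ⟩ := h5
  have h6 := congrArg (Polynomial.eval 0) hρ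
  have h7 := congrArg (Polynomial.eval (-1)) hρ
  rw [Polynomial.eval_sub, Polynomial.eval_mul, Polynomial.eval_C, Polynomial.eval_pow, hK0,
    hG0, Polynomial.eval_zero] at h6
  rw [Polynomial.eval_sub, Polynomial.eval_mul, Polynomial.eval_C, Polynomial.eval_pow, hK1,
    hG1, Polynomial.eval_zero] at h7
  have h8 : ρ = 1 / 1600 := by linear_combination (-1 / 64000 : ℂ) * h6
  rw [h8] at h7
  norm_num at h7

lemma sub_one_one_eval (Q : MvPolynomial (Fin 5 × Fin 3) ℂ) (w : ℂ) :
    (sub 1 1 Polynomial.X Q).eval w = evp Q (five ![1, 1, w]) := by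
  rw [sub_eval, Polynomial.eval_one, Polynomial.eval_X]

lemma valG0 : (sub 1 1 Polynomial.X Gp).eval 0 = 40 := by
  rw [sub_one_one_eval]
  have h := five_int 1 1 0
  rw [Int.cast_one, Int.cast_zero] at h
  rw [h, evp_Gp_int, g0]
  norm_num

lemma valK0 : (sub 1 1 Polynomial.X Kp).eval 0 = 40 := by
  rw [sub_one_one_eval]
  have h := five_int 1 1 0
  rw [Int.cast_one, Int.cast_zero] at h
  rw [h, evp_Kp_int, k0]
  norm_num

lemma valG1 : (sub 1 1 Polynomial.X Gp).eval (-1) = 480 := by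
  rw [sub_one_one_eval]
  have h := five_int 1 1 (-1)
  rw [Int.cast_one, Int.cast_neg, Int.cast_one] at h
  rw [h, evp_Gp_int, g1]
  norm_num

lemma valK1 : (sub 1 1 Polynomial.X Kp).eval (-1) = 84480 := by
  rw [sub_one_one_eval]
  have h := five_int 1 1 (-1)
  rw [Int.cast_one, Int.cast_neg, Int.cast_one] at h
  rw [h, evp_Kp_int, k1]
  norm_num

end RowA2

open RowA2

/-- ROW A2. On `(1, 1, z)` one has `D = 0` and `K / G ^ 3` is not constant. -/
theorem FF_indep (N : ℕ) :
    LinearIndependent ℂ (fun t : Fin N × Fin N => fun p : Pt => evp (FF N t) (five p)) := by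
  rw [Fintype.linearIndependent_iff]
  intro g hg
  have h0 : ∀ p : Pt, ∑ i : Fin N, evp Dp (five p) ^ ((i : ℕ) + 1) *
      ∑ j : Fin N, g (i, j) * (evp Kp (five p) ^ (j : ℕ) *
        evp Gp (five p) ^ (10 * N - 6 * ((i : ℕ) + 1) - 3 * (j : ℕ))) = 0 := by
    intro p
    have h1 := congrFun hg p
    rw [Finset.sum_apply, Fintype.sum_prod_type] at h1
    rw [← show (0 : Pt → ℂ) p = 0 from rfl, ← h1]
    refine Finset.sum_congr rfl (fun i _ => ?_)
    rw [Finset.mul_sum]
    refine Finset.sum_congr rfl (fun j _ => ?_)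
    simp only [Pi.smul_apply, smul_eq_mul, FF, evp, map_mul, map_pow]
    ring
  have key : ∀ k : ℕ, ∀ i : Fin N, (i : ℕ) = k → ∀ j, g (i, j) = 0 := by
    intro k
    induction k using Nat.strong_induction_on with
    | _ k ih =>
      intro i hik
      have hz : ∀ n : ℕ, 3 ≤ n → ∑ j : Fin N, g (i, j) *
          ((sub 1 1 Polynomial.X Kp).eval (n : ℂ) ^ (j : ℕ) *
            (sub 1 1 Polynomial.X Gp).eval (n : ℂ) ^
              (10 * N - 6 * ((i : ℕ) + 1) - 3 * (j : ℕ))) = 0 := by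
        intro n hn
        have hn' : (3 : ℤ) ≤ (n : ℤ) := by exact_mod_cast hn
        set y : Polynomial ℂ := 1 + Polynomial.X with hy
        set z : Polynomial ℂ := Polynomial.C (n : ℂ) with hzz
        have hne : sub 1 y z Dp ≠ 0 := by
          intro h1
          have h2 := congrArg (Polynomial.eval 1) h1
          rw [sub_eval, Polynomial.eval_zero, hy, hzz, Polynomial.eval_add,
            Polynomial.eval_one, Polynomial.eval_X, Polynomial.eval_C] at h2
          have h3 := evp_Dp_ne (n : ℤ) hn'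
          rw [Int.cast_natCast] at h3
          apply h3
          rw [← h2]
          norm_num
        have hz0 : (sub 1 y z Dp).eval 0 = 0 := by
          rw [sub_eval, hy, hzz, Polynomial.eval_add,
            Polynomial.eval_one, Polynomial.eval_X, Polynomial.eval_C, add_zero]
          have h3 := evp_Dp_zero (n : ℤ)
          rwa [Int.cast_natCast] at h3
        have h4 := step1 (sub 1 y z Dp) hne hz0
          (fun i : Fin N => ∑ j : Fin N, Polynomial.C (g (i, j)) * (sub 1 y z Kp ^ (j : ℕ) *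
            sub 1 y z Gp ^ (10 * N - 6 * ((i : ℕ) + 1) - 3 * (j : ℕ)))) ?_ i ?_
        · rw [← h4]
          simp only [Polynomial.eval_finsetSum, Polynomial.eval_mul, Polynomial.eval_C,
            Polynomial.eval_pow, sub_eval, hy, hzz, Polynomial.eval_add, Polynomial.eval_one,
            Polynomial.eval_X, add_zero]
        · apply Polynomial.funext
          intro w
          rw [Polynomial.eval_zero, ← h0 ![1, 1 + w, (n : ℂ)]]
          simp only [Polynomial.eval_finsetSum, Polynomial.eval_mul, Polynomial.eval_C,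
            Polynomial.eval_pow, sub_eval, hy, hzz, Polynomial.eval_add, Polynomial.eval_one,
            Polynomial.eval_X]
        · intro i' hi'
          refine Finset.sum_eq_zero (fun j _ => ?_)
          rw [ih (i' : ℕ) (by rw [← hik]; exact hi') i' rfl j, Polynomial.C_0, zero_mul]
      exact step2 _ _ valK0 valG0 valK1 valG1 (fun j => g (i, j)) (10 * N - 6 * ((i : ℕ) + 1))
        (fun j => by have := i.2; have := j.2; omega) hz
  rintro ⟨i, j⟩
  exact key _ i rfl j

end Vale.Agent.P181.H553
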