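import Vale.Agent.P181.R2.H553.Defs

/-!
Membership in the space of highest weight vectors, tested on measures.
-/

set_option autoImplicit false

open scoped TensorProduct
open MvPolynomial

namespace Vale.Agent.P181.H553

open Vale.Agent.P181 Vale.Agent.P181.H280 Vale.Agent.P181.H179

lemma h747_lin_surj (ξ : Module.Dual ℂ (Fin 3 → ℂ)) : ∃ p : Pt, lin p = ξ := by
  refine ⟨fun i => ξ (Pi.single i 1), ?_⟩
  apply LinearMap.ext
  intro v
  have h1 : ξ v = ∑ i, v i * ξ (Pi.single i 1) := by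
    conv_lhs => rw [pi_eq_sum_univ' v]
    rw [map_sum]
    refine Finset.sum_congr rfl (fun i _ => ?_)
    rw [map_smul, smul_eq_mul]
  rw [h1]
  simp only [lin, LinearMap.sum_apply, LinearMap.smul_apply, LinearMap.proj_apply, smul_eq_mul]
  exact Finset.sum_congr rfl (fun i _ => mul_comm _ _)

lemma h747_ev_surj (a : ℕ) (ξ : Module.Dual ℂ (Sym[ℂ]^a (Fin 3 → ℂ))) :
    ∃ c : Meas, ev a c = ξ := by
  have hspan : Submodule.span ℂ (Set.range fun p : Pt => evalPow a (lin p)) = ⊤ := by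
    apply span_eq_top_of_separates
    intro x hx
    apply eq_zero_of_evalPow x
    intro η
    obtain ⟨p, rfl⟩ := h747_lin_surj η
    exact hx _ ⟨p, rfl⟩
  have hmem : ξ ∈ Submodule.span ℂ (Set.range fun p : Pt => evalPow a (lin p)) := by
    rw [hspan]
    exact Submodule.mem_top
  rw [Finsupp.mem_span_range_iff_exists_finsupp] at hmem
  obtain ⟨c, hc⟩ := hmem
  exact ⟨c, hc⟩

lemma h747_lin_comp (p : Pt) (g : Matrix (Fin 3) (Fin 3) ℂ) :
    (lin p) ∘ₗ Matrix.toLin' g = lin (Matrix.vecMul p g) := by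
  apply LinearMap.ext
  intro v
  rw [LinearMap.comp_apply, Matrix.toLin'_apply]
  simp only [lin, LinearMap.sum_apply, LinearMap.smul_apply, LinearMap.proj_apply, smul_eq_mul,
    Matrix.mulVec, Matrix.vecMul, dotProduct, Finset.mul_sum, Finset.sum_mul]
  rw [Finset.sum_comm]
  refine Finset.sum_congr rfl (fun i _ => Finset.sum_congr rfl (fun j _ => ?_))
  ring

lemma h747_ev_comp (a : ℕ) (g : Matrix (Fin 3) (Fin 3) ℂ) (c : Meas) :
    (ev a c) ∘ₗ symMap a (Matrix.toLin' g) =
      ev a (Finsupp.mapDomain (fun p => Matrix.vecMul p g) c) := by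
  have h : ev a (Finsupp.mapDomain (fun p => Matrix.vecMul p g) c) =
      c.sum fun p r => r • evalPow a (lin (Matrix.vecMul p g)) := by
    unfold ev
    rw [Finsupp.sum_mapDomain_index]
    · intro b
      exact zero_smul _ _
    · intro b m₁ m₂
      exact add_smul _ _ _
  rw [h]
  apply LinearMap.ext
  intro y
  unfold ev Finsupp.sum
  rw [LinearMap.comp_apply, LinearMap.sum_apply, LinearMap.sum_apply]
  refine Finset.sum_congr rfl (fun p _ => ?_)
  show c p • evalPow a (lin p) (symMap a (Matrix.toLin' g) y) =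
    c p • evalPow a (lin (Matrix.vecMul p g)) y
  rw [← h747_lin_comp p g, ← evalPow_symMap]
  rfl

theorem h747_mem_hwSpace_of {a d : ℕ} {lam : Fin 3 → ℕ} (x : Pleth d a 3)
    (h : ∀ g : Matrix (Fin 3) (Fin 3) ℂ, IsBorel g → ∀ c : Meas,
      evalPow d (ev a (Finsupp.mapDomain (fun p => Matrix.vecMul p g) c)) x =
        (∏ i, g i i ^ lam i) * evalPow d (ev a c) x) : x ∈ hwSpace lam (plethAct d a 3) := by
  intro g hg
  have key : ∀ y z : Sym[ℂ]^d (Sym[ℂ]^a (Fin 3 → ℂ)),
      (∀ ξ, evalPow d ξ y = evalPow d ξ z) → y = z := by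
    intro y z hyz
    rw [← sub_eq_zero]
    apply eq_zero_of_evalPow
    intro ξ
    rw [map_sub, hyz ξ, sub_self]
  refine key _ _ (fun ξ => ?_)
  obtain ⟨c, rfl⟩ := h747_ev_surj a ξ
  have h1 : evalPow d (ev a c) (plethAct d a 3 g x) =
      evalPow d ((ev a c) ∘ₗ symMap a (Matrix.toLin' g)) x := by
    rw [← evalPow_symMap]
    rfl
  have h2 : evalPow d (ev a c) ((∏ i, g i i ^ lam i) • x) =
      (∏ i, g i i ^ lam i) * evalPow d (ev a c) x := by
    exact map_smul (evalPow d (ev a c)) _ _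
  rw [h1, h747_ev_comp, h g hg c]
  exact h2.symm

end Vale.Agent.P181.H553
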