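import Vale.Agent.P181.R2.H553.Defs

/-!
The vector of `Sym^r(Sym^a ℂ^3)` attached to a polynomial in `r` points which is homogeneous of
degree `a` in each of them; it is a highest weight vector when the polynomial is
semi-invariant.
-/

set_option autoImplicit false

open scoped TensorProduct
open MvPolynomial

namespace Vale.Agent.P181.H553

open Vale.Agent.P181 Vale.Agent.P181.H280 Vale.Agent.P181.H179

lemma h747_exists_word {a : ℕ} (k : Fin 3 → ℕ) (hk : ∑ i, k i = a) :
    ∃ f : Fin a → Fin 3, ∀ z : Fin 3 → ℂ, ∏ j, z (f j) = ∏ i, z i ^ k i := by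
  obtain ⟨f, hf⟩ := exists_fin_map
    (Multiset.replicate (k 0) (0 : Fin 3) + Multiset.replicate (k 1) (1 : Fin 3) +
      Multiset.replicate (k 2) (2 : Fin 3)) a
    (by rw [Multiset.card_add, Multiset.card_add, Multiset.card_replicate,
          Multiset.card_replicate, Multiset.card_replicate, ← hk, Fin.sum_univ_three])
  refine ⟨f, fun z => ?_⟩
  have h1 : ∏ j, z (f j) = (Multiset.map z (Multiset.map f Finset.univ.val)).prod := by
    rw [Multiset.map_map]
    rfl
  rw [h1, ← hf, Multiset.map_add, Multiset.map_add, Multiset.map_replicate,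
    Multiset.map_replicate, Multiset.map_replicate, Multiset.prod_add, Multiset.prod_add,
    Multiset.prod_replicate, Multiset.prod_replicate, Multiset.prod_replicate,
    Fin.prod_univ_three]

lemma h747_lin_single (p : Pt) (i : Fin 3) : lin p (Pi.single i 1) = p i := by
  simp only [lin, LinearMap.sum_apply, LinearMap.smul_apply, LinearMap.proj_apply, smul_eq_mul]
  rw [Finset.sum_eq_single i]
  · rw [Pi.single_eq_same, mul_one]
  · intro j _ hj
    rw [Pi.single_eq_of_ne hj, mul_zero]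
  · intro h
    exact absurd (Finset.mem_univ i) h

lemma h747_exists_vec (a : ℕ) (k : Fin 3 → ℕ) :
    ∃ w : Sym[ℂ]^a (Fin 3 → ℂ), ∑ i, k i = a →
      ∀ p : Pt, evalPow a (lin p) w = ∏ i, p i ^ k i := by
  by_cases hk : ∑ i, k i = a
  · obtain ⟨f, hf⟩ := h747_exists_word k hk
    refine ⟨SymmetricPower.tprod ℂ (fun j => Pi.single (f j) 1), fun _ p => ?_⟩
    rw [evalPow_tprod, ← hf p]
    exact Finset.prod_congr rfl (fun j _ => h747_lin_single p (f j))
  · exact ⟨0, fun h => absurd h hk⟩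

lemma h747_ev_mapDomain (a : ℕ) (φ : Pt → Pt) (c : Meas) (v : Sym[ℂ]^a (Fin 3 → ℂ)) :
    ev a (Finsupp.mapDomain φ c) v = ∑ p ∈ c.support, c p * evalPow a (lin (φ p)) v := by
  have h : ev a (Finsupp.mapDomain φ c) =
      c.sum fun p r => r • evalPow a (lin (φ p)) := by
    unfold ev
    rw [Finsupp.sum_mapDomain_index]
    · intro b
      exact zero_smul _ _
    · intro b m₁ m₂
      exact add_smul _ _ _
  rw [h, Finsupp.sum, LinearMap.sum_apply]
  exact Finset.sum_congr rfl (fun p _ => rfl)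

lemma h747_sum_of_multi {a r : ℕ} (Q : MvPolynomial (Fin r × Fin 3) ℂ) (hQ : Multi a r Q)
    (m : Fin r × Fin 3 →₀ ℕ) (hm : m ∈ Q.support) (l : Fin r) : ∑ i, m (l, i) = a := by
  have h := hQ l (mem_support_iff.mp hm)
  rw [Finsupp.weight_apply, Finsupp.sum_fintype _ _ (fun s => by rw [zero_smul]),
    Fintype.sum_prod_type] at h
  rw [← h, Finset.sum_eq_single l]
  · exact Finset.sum_congr rfl (fun i _ => by simp)
  · intro j _ hj
    exact Finset.sum_eq_zero (fun i _ => by simp [hj])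
  · intro h'
    exact absurd (Finset.mem_univ l) h'

/-- The value of the vector attached to `Q` on a measure moved by `φ`. -/
lemma h747_exists_tensor {a r : ℕ} (Q : MvPolynomial (Fin r × Fin 3) ℂ) (hQ : Multi a r Q) :
    ∃ x : Pleth r a 3, ∀ (φ : Pt → Pt) (c : Meas),
      evalPow r (ev a (Finsupp.mapDomain φ c)) x =
        ∑ p ∈ Fintype.piFinset (fun _ : Fin r => c.support), (∏ l, c (p l)) *
          eval (fun s : Fin r × Fin 3 => φ (p s.1) s.2) Q := by
  choose w hw using h747_exists_vec a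
  refine ⟨∑ m ∈ Q.support, coeff m Q •
    (SymmetricPower.tprod ℂ (fun l : Fin r => w (fun i => m (l, i))) :
      Sym[ℂ]^r (Sym[ℂ]^a (Fin 3 → ℂ))), fun φ c => ?_⟩
  have h1 : evalPow r (ev a (Finsupp.mapDomain φ c)) (∑ m ∈ Q.support, coeff m Q •
      (SymmetricPower.tprod ℂ (fun l : Fin r => w (fun i => m (l, i))) :
        Sym[ℂ]^r (Sym[ℂ]^a (Fin 3 → ℂ)))) =
      ∑ m ∈ Q.support, coeff m Q * ∏ l : Fin r, ∑ p ∈ c.support,
        c p * ∏ i, φ p i ^ m (l, i) := by
    rw [map_sum]
    refine Finset.sum_congr rfl (fun m hm => ?_)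
    rw [map_smul, evalPow_tprod, smul_eq_mul]
    congr 1
    refine Finset.prod_congr rfl (fun l _ => ?_)
    rw [h747_ev_mapDomain]
    refine Finset.sum_congr rfl (fun p _ => ?_)
    rw [hw _ (h747_sum_of_multi Q hQ m hm l)]
  refine h1.trans ?_
  have h2 : ∀ m : Fin r × Fin 3 →₀ ℕ,
      (∏ l : Fin r, ∑ p ∈ c.support, c p * ∏ i, φ p i ^ m (l, i)) =
        ∑ p ∈ Fintype.piFinset (fun _ : Fin r => c.support), (∏ l, c (p l)) *
          ∏ s : Fin r × Fin 3, φ (p s.1) s.2 ^ m s := by
    intro m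
    rw [Finset.prod_univ_sum]
    refine Finset.sum_congr rfl (fun p _ => ?_)
    rw [Finset.prod_mul_distrib, Fintype.prod_prod_type]
  simp only [h2, Finset.mul_sum]
  rw [Finset.sum_comm]
  refine Finset.sum_congr rfl (fun p _ => ?_)
  rw [eval_eq', Finset.mul_sum]
  refine Finset.sum_congr rfl (fun m _ => ?_)
  ring

theorem h747_hwf_of
    (mem_hwSpace_of : ∀ {a d : ℕ} {lam : Fin 3 → ℕ} (x : Pleth d a 3),
      (∀ g : Matrix (Fin 3) (Fin 3) ℂ, IsBorel g → ∀ c : Meas,
        evalPow d (ev a (Finsupp.mapDomain (fun p => Matrix.vecMul p g) c)) x =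
          (∏ i, g i i ^ lam i) * evalPow d (ev a c) x) → x ∈ hwSpace lam (plethAct d a 3))
    {a r : ℕ} {lam : Fin 3 → ℕ} (Q : MvPolynomial (Fin r × Fin 3) ℂ)
    (hQ : Multi a r Q) (hS : Semi lam Q) :
    HWF a r lam (fun c => integ c (fun p => eval (fun s : Fin r × Fin 3 => p s.1 s.2) Q)) := by
  obtain ⟨x, hx⟩ := h747_exists_tensor Q hQ
  have hid : ∀ c : Meas, evalPow r (ev a c) x =
      integ c (fun p => eval (fun s : Fin r × Fin 3 => p s.1 s.2) Q) := by
    intro c
    have h := hx id c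
    rw [Finsupp.mapDomain_id] at h
    exact h
  refine ⟨x, mem_hwSpace_of x (fun g hg c => ?_), hid⟩
  rw [hx, hid, integ, Finset.mul_sum]
  refine Finset.sum_congr rfl (fun p _ => ?_)
  rw [hS g hg p]
  ring

end Vale.Agent.P181.H553
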