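import Vale.Agent.P181.R2.H747.HwSpace
import Vale.Agent.P181.R2.H747.ThreeBulk2

/-!
The literal row 2: a semi-invariant multihomogeneous polynomial is the function of a highest
weight vector.
-/

set_option autoImplicit false

open scoped TensorProduct
open MvPolynomial

namespace Vale.Agent.P181.H553

open Vale.Agent.P181 Vale.Agent.P181.H280 Vale.Agent.P181.H179

theorem hwf_of {a r : ℕ} {lam : Fin 3 → ℕ} (Q : MvPolynomial (Fin r × Fin 3) ℂ)
    (hQ : Multi a r Q) (hS : Semi lam Q) :
    HWF a r lam (fun c => integ c (fun p => eval (fun s : Fin r × Fin 3 => p s.1 s.2) Q)) :=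
  h747_hwf_of (fun x h => h747_mem_hwSpace_of x h) Q hQ hS

end Vale.Agent.P181.H553
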